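import Vale.Agent.P240.R2.H329.FewSp
import Vale.Agent.P240.R2.H112.S1G
import Vale.Agent.P240.R2.H112.PH

/-!
P240: outer automorphisms of order two of `PSp_{2m}(q)`, `q` odd, `m ≥ 2`: among three of them two
agree modulo inner automorphisms; hence `FewAut 2` if `𝒜₂` is connected or `q` is no square.
-/

set_option autoImplicit false

namespace Vale.Agent.P240.R2.H667.Fa

open Matrix Subgroup Vale.Agent.P240.H195
open Vale.Agent.P240.R2.H329 (PQ Ty RS sq_of cyc_aut)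
open Vale.Agent.P240.K

universe u v

noncomputable section

variable {K : Type u} [Field K] {m : ℕ}

/-- the type of the trivial automorphism -/
lemma ty_one (hm : 1 ≤ m) {M : Matrix (Fin m ⊕ Fin m) (Fin m ⊕ Fin m) K} {μ : K} {σ : RingAut K}
    (h : Ty (1 : MulAut (PQ K m)) M μ σ) :
    σ = 1 ∧ ∃ c : K, M = c • (1 : Matrix (Fin m ⊕ Fin m) (Fin m ⊕ Fin m) K) := by
  have hd := H329.isUnit_of_sim h.ne h.sim
  refine H112.stmtS1g K m hm M M⁻¹ (Matrix.mul_nonsing_inv M hd) σ fun g => ?_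
  obtain ⟨g', hg'⟩ := H329.exists_conj h.ne h.sim ⟨g.1.map σ, SymplecticGroup.map_mem g.2 σ⟩
  have h1 := h.ind g g' hg'
  rw [MulAut.one_apply, QuotientGroup.eq, H112.mem_center_sy hm] at h1
  obtain ⟨c, hc⟩ := h1
  refine ⟨c, ?_⟩
  have h2 : g'.1 = c • g.1 := by
    have h3 : g' = g * (g⁻¹ * g') := by group
    have h4 := congrArg Subtype.val h3
    have h5 : (g * (g⁻¹ * g') : H715.Sy K m).1 = g.1 * (g⁻¹ * g' : H715.Sy K m).1 := rfl
    rw [h5, hc, Matrix.mul_smul, Matrix.mul_one] at h4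
    exact h4
  have h3 : M * g.1.map σ = g'.1 * M := hg'.symm
  rw [h3, h2, Matrix.smul_mul]

/-- elements of the fixed field of an involution are squares -/
lemma fixed_sq [Finite K] (h2 : (2 : K) ≠ 0) {σ : RingAut K} (hσ : σ * σ = 1) (hσ1 : σ ≠ 1) {z : K}
    (hz : σ z = z) : IsSquare z := by
  obtain ⟨w, hw⟩ : ∃ w : K, σ w ≠ w := by
    by_contra hcon
    push Not at hcon
    exact hσ1 (RingEquiv.ext hcon)
  have hσσ : ∀ x : K, σ (σ x) = x := fun x => by
    change (σ * σ) x = x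
    rw [hσ]; rfl
  set s : K := w - σ w with hs
  have hs0 : s ≠ 0 := fun h0 => hw (sub_eq_zero.1 h0).symm
  have hσs : σ s = -s := by rw [hs, map_sub, hσσ]; ring
  -- the fixed field
  let k : Subfield K := (σ : K ≃+* K).toRingHom.eqLocusField (RingHom.id K)
  have hk : ∀ x : K, x ∈ k ↔ σ x = x := fun x => Iff.rfl
  by_cases hz0 : z = 0
  · exact ⟨0, by rw [hz0, mul_zero]⟩
  let z' : k := ⟨z, hz⟩
  by_cases h3 : IsSquare z'
  · obtain ⟨t, ht⟩ := h3
    exact ⟨t, congrArg Subtype.val ht⟩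
  have hd : σ (s * s) = s * s := by rw [map_mul, hσs]; ring
  let d : k := ⟨s * s, hd⟩
  have h4 : ¬ IsSquare d := by
    rintro ⟨t, ht⟩
    have h5 : s * s = (t : K) * t := congrArg Subtype.val ht
    have h6 : σ (t : K) = t := t.2
    have h7 : s = t ∨ s = -t := mul_self_eq_mul_self_iff.1 h5
    have h8 : σ s = s := by
      rcases h7 with h7 | h7
      · rw [h7, h6]
      · rw [h7, map_neg, h6]
    rw [hσs] at h8
    have h9 : (2 : K) * s = 0 := by linear_combination -h8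
    rcases mul_eq_zero.1 h9 with h | h
    · exact h2 h
    · exact hs0 h
  have h2' : (2 : k) ≠ 0 := fun h => h2 (congrArg Subtype.val h)
  have hz'0 : z' ≠ 0 := fun h => hz0 (congrArg Subtype.val h)
  have hd0 : d ≠ 0 := fun h => mul_ne_zero hs0 hs0 (congrArg Subtype.val h)
  obtain ⟨t, ht⟩ := sq_of h2' hz'0 hd0 h3 h4
  have h5 : z * (s * s) = (t : K) * t := congrArg Subtype.val ht
  refine ⟨t / s, ?_⟩
  field_simp
  linear_combination h5

/-- if `μ σ(μ)` is the square of a fixed element, then `μ` is a square -/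
lemma mult_sq [Finite K] (h2 : (2 : K) ≠ 0) {σ : RingAut K} (hσ : σ * σ = 1) (hσ1 : σ ≠ 1)
    {μ c : K} (hμ : μ ≠ 0) (hc : σ c = c) (h : μ * σ μ = c * c) : IsSquare μ := by
  have hσσ : ∀ x : K, σ (σ x) = x := fun x => by
    change (σ * σ) x = x
    rw [hσ]; rfl
  have hc0 : c ≠ 0 := by
    rintro rfl
    rw [mul_zero] at h
    rcases mul_eq_zero.1 h with h | h
    · exact hμ h
    · exact hμ (by simpa using h)
  by_cases h1 : c + μ = 0
  · have : μ = -c := by linear_combination h1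
    rw [this]
    exact fixed_sq h2 hσ hσ1 (by rw [map_neg, hc])
  -- Hilbert 90
  set a : K := c + μ with ha
  have hσa : μ * σ a = c * a := by rw [ha, map_add, hc]; linear_combination h
  have hσa0 : σ a ≠ 0 := by simpa using h1
  obtain ⟨r, hr⟩ := fixed_sq h2 hσ hσ1 (z := a * σ a) (by rw [map_mul, hσσ, mul_comm])
  obtain ⟨t, ht⟩ := fixed_sq h2 hσ hσ1 hc
  have hr0 : r ≠ 0 := by
    rintro rfl
    rw [mul_zero] at hr
    exact mul_ne_zero h1 hσa0 hr
  refine ⟨t * a / r, ?_⟩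
  have e1 : μ = c * a / σ a := by
    rw [← hσa]; field_simp
  have e2 : t * a / r * (t * a / r) = (t * t) * (a * a) / (r * r) := by field_simp
  rw [e2, ← ht, ← hr, e1]
  field_simp

/-- the type of an involution -/
lemma inv_type [Finite K] (h2 : (2 : K) ≠ 0) (hm : 1 ≤ m) {f : MulAut (PQ K m)}
    {M : Matrix (Fin m ⊕ Fin m) (Fin m ⊕ Fin m) K} {μ : K} {σ : RingAut K} (hf : Ty f M μ σ)
    (hff : f ^ 2 = 1) : σ * σ = 1 ∧ (σ ≠ 1 → IsSquare μ) := by
  have h1 := hf.mul hf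
  rw [← pow_two, hff] at h1
  obtain ⟨hσ, c, hc⟩ := ty_one hm h1
  refine ⟨hσ, fun hσ1 => ?_⟩
  -- the multiplier
  have hJ : J (Fin m) K ≠ 0 := by
    intro h
    have hJJ : J (Fin m) K * J (Fin m) K = -1 := J_squared _ _
    rw [h, Matrix.zero_mul] at hJJ
    have := congrFun (congrFun hJJ (Sum.inl ⟨0, hm⟩)) (Sum.inl ⟨0, hm⟩)
    simp at this
  have h3 := h1.sim
  rw [hc, Matrix.transpose_smul, Matrix.transpose_one, Matrix.smul_mul, Matrix.smul_mul,
    Matrix.mul_smul, Matrix.one_mul, Matrix.mul_one, smul_smul] at h3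
  have h4 : (c * c - μ * σ μ) • J (Fin m) K = 0 := by rw [sub_smul, h3, sub_self]
  have h5 : c * c = μ * σ μ := sub_eq_zero.1 ((smul_eq_zero.1 h4).resolve_right hJ)
  have hc0 : c ≠ 0 := by
    rintro rfl
    rw [mul_zero] at h5
    exact h1.ne h5.symm
  -- `c` is fixed
  have h6 : M.map σ * M = c • (1 : Matrix (Fin m ⊕ Fin m) (Fin m ⊕ Fin m) K) := by
    have h7 : (c⁻¹ • M.map σ) * M = 1 := by
      rw [mul_eq_one_comm, Matrix.mul_smul, hc, smul_smul, inv_mul_cancel₀ hc0, one_smul]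
    have h8 := congrArg (fun X => c • X) h7
    simp only [Matrix.smul_mul, smul_smul, mul_inv_cancel₀ hc0, one_smul] at h8
    exact h8
  have h7 : M.map σ * M = σ c • (1 : Matrix (Fin m ⊕ Fin m) (Fin m ⊕ Fin m) K) := by
    have h8 := congrArg (fun X => X.map σ) hc
    simp only [H329.mul_map, H329.map_map', H329.smul_map, hσ, H329.map_one'] at h8
    rw [h8]
    congr 1
    ext i j
    by_cases hij : i = j
    · subst hij; simp
    · simp [Matrix.one_apply_ne hij]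
  have h8 : σ c = c := by
    rw [h6] at h7
    have h9 := congrFun (congrFun h7 (Sum.inl ⟨0, hm⟩)) (Sum.inl ⟨0, hm⟩)
    simp only [Matrix.smul_apply, Matrix.one_apply_eq, smul_eq_mul, mul_one] at h9
    exact h9.symm
  exact mult_sq h2 hσ hσ1 hf.ne h8 h5.symm

/-- there is at most one involution in the automorphism group of a finite field -/
lemma unique_inv [Finite K] {σ τ : RingAut K} (hσ : σ * σ = 1) (hσ1 : σ ≠ 1) (hτ : τ * τ = 1)
    (hτ1 : τ ≠ 1) : σ = τ := by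
  classical
  have := cyc_aut K
  have hfin : Finite (RingAut K) := DFunLike.finite (K ≃+* K)
  have := Fintype.ofFinite (RingAut K)
  by_contra hne
  have h1 := IsCyclic.card_pow_eq_one_le (α := RingAut K) (n := 2) (by norm_num)
  have h2 : ({1, σ, τ} : Finset (RingAut K)) ⊆ Finset.univ.filter (fun a : RingAut K => a ^ 2 = 1) := by
    intro x hx
    rw [Finset.mem_filter]
    refine ⟨Finset.mem_univ _, ?_⟩
    simp only [Finset.mem_insert, Finset.mem_singleton] at hx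
    rcases hx with rfl | rfl | rfl
    · exact one_pow 2
    · rw [pow_two, hσ]
    · rw [pow_two, hτ]
  have h3 := Finset.card_le_card h2
  have h4 : ({1, σ, τ} : Finset (RingAut K)).card = 3 := by
    rw [Finset.card_eq_three]
    exact ⟨1, σ, τ, hσ1.symm, hτ1.symm, hne, rfl⟩
  omega

/-- two outer involutions of the same type agree modulo inner automorphisms -/
lemma pair [Finite K] (h2 : (2 : K) ≠ 0) (hm : 1 ≤ m) {f g : MulAut (PQ K m)}
    {M N : Matrix (Fin m ⊕ Fin m) (Fin m ⊕ Fin m) K} {μ ν : K} {σ τ : RingAut K}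
    (hf : Ty f M μ σ) (hg : Ty g N ν τ) (hf2 : OutAut 2 f) (hg2 : OutAut 2 g)
    (hst : σ = 1 ↔ τ = 1) : g ∈ zpowers f ⊔ (MulAut.conj (G := PQ K m)).range := by
  obtain ⟨hσ, hμ⟩ := inv_type h2 hm hf hf2.1
  obtain ⟨hτ, hν⟩ := inv_type h2 hm hg hg2.1
  have hfg : f * g ∈ (MulAut.conj (G := PQ K m)).range := by
    have h1 := hf.mul hg
    by_cases h3 : σ = 1
    · have h4 := hst.1 h3
      subst h3; subst h4
      have h5 : ¬ IsSquare μ := by
        rintro ⟨c, rfl⟩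
        exact hf2.2 hf.inner
      have h6 : ¬ IsSquare ν := by
        rintro ⟨c, rfl⟩
        exact hg2.2 hg.inner
      obtain ⟨c, hc⟩ := sq_of h2 hf.ne hg.ne h5 h6
      rw [RingAut.one_apply, hc] at h1
      exact Ty.inner (c := c) (by simpa using h1)
    · have h4 : τ ≠ 1 := fun h => h3 (hst.2 h)
      have h5 := unique_inv hσ h3 hτ h4
      subst h5
      obtain ⟨c, hc⟩ := hμ h3
      obtain ⟨d, hd⟩ := hν h3
      rw [hσ, hc, hd, map_mul, show c * c * (σ d * σ d) = (c * σ d) * (c * σ d) by ring] at h1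
      exact Ty.inner h1
  have h1 : g = f⁻¹ * (f * g) := by group
  rw [h1]
  exact mul_mem (mem_sup_left (inv_mem (mem_zpowers f))) (mem_sup_right hfg)

/-- among three outer involutions two agree modulo inner automorphisms -/
theorem three [Finite K] (h2 : (2 : K) ≠ 0) (hm : 2 ≤ m) (f g h : MulAut (PQ K m))
    (hf : OutAut 2 f) (hg : OutAut 2 g) (hh : OutAut 2 h) :
    g ∈ zpowers f ⊔ (MulAut.conj (G := PQ K m)).range ∨
      h ∈ zpowers f ⊔ (MulAut.conj (G := PQ K m)).range ∨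
      h ∈ zpowers g ⊔ (MulAut.conj (G := PQ K m)).range := by
  obtain ⟨M, μ, σ, a1, a2, a3⟩ := H112.stmtSA' h2 hm f
  obtain ⟨N, ν, τ, b1, b2, b3⟩ := H112.stmtSA' h2 hm g
  obtain ⟨P, ρ, υ, c1, c2, c3⟩ := H112.stmtSA' h2 hm h
  have ta : Ty f M μ σ := ⟨a1, a2, a3⟩
  have tb : Ty g N ν τ := ⟨b1, b2, b3⟩
  have tc : Ty h P ρ υ := ⟨c1, c2, c3⟩
  have hm' : 1 ≤ m := by omega
  by_cases e1 : (σ : RingAut K) = 1 ↔ (τ : RingAut K) = 1
  · exact Or.inl (pair h2 hm' ta tb hf hg e1)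
  by_cases e2 : (σ : RingAut K) = 1 ↔ (υ : RingAut K) = 1
  · exact Or.inr (Or.inl (pair h2 hm' ta tc hf hh e2))
  · exact Or.inr (Or.inr (pair h2 hm' tb tc hg hh (by tauto)))

/-- `FewAut 2` for `PSp_{2m}(q)`, `q` odd, if `𝒜₂` is connected -/
theorem fewAut_PQ_two_of [Finite K] (h2 : (2 : K) ≠ 0) (hm : 2 ≤ m)
    (hconn : ∀ A B : Ap 2 (PQ K m), Relation.ReflTransGen (fun X Y => X ≤ Y ∨ Y ≤ X) A B) :
    FewAut 2 (PQ K m) :=
  ⟨three h2 hm, Or.inr hconn⟩

/-- `FewAut 2` for `PSp_{2m}(q)`, `q` odd, if `K` has no automorphism of order two (`q` is no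
square) -/
theorem fewAut_PQ_two [Finite K] (h2 : (2 : K) ≠ 0) (hm : 2 ≤ m)
    (hK : ∀ σ : RingAut K, σ * σ = 1 → σ = 1) : FewAut 2 (PQ K m) := by
  refine ⟨three h2 hm, Or.inl fun f g hf hg => ?_⟩
  obtain ⟨M, μ, σ, a1, a2, a3⟩ := H112.stmtSA' h2 hm f
  obtain ⟨N, ν, τ, b1, b2, b3⟩ := H112.stmtSA' h2 hm g
  have ta : Ty f M μ σ := ⟨a1, a2, a3⟩
  have tb : Ty g N ν τ := ⟨b1, b2, b3⟩
  have hm' : 1 ≤ m := by omega
  have e1 := hK σ (inv_type h2 hm' ta hf.1).1
  have e2 := hK τ (inv_type h2 hm' tb hg.1).1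
  exact pair h2 hm' ta tb hf hg (by rw [e1, e2])

/-- `FewAut 2` for groups isomorphic to `PSp_{2m}(q)`, `q` odd, if `𝒜₂` is connected -/
theorem fewAut_PSp_two_of [Finite K] (h2 : (2 : K) ≠ 0) (hm : 2 ≤ m) {L : Type v} [Group L]
    (e : L ≃* H715.Sy K m ⧸ center (H715.Sy K m))
    (hconn : ∀ A B : Ap 2 (PQ K m), Relation.ReflTransGen (fun X Y => X ≤ Y ∨ Y ≤ X) A B) :
    FewAut 2 L := (fewAut_PQ_two_of h2 hm hconn).congr e.symm

/-- `FewAut 2` for groups isomorphic to `PSp_{2m}(q)`, `q` odd and no square -/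
theorem fewAut_PSp_two [Finite K] (h2 : (2 : K) ≠ 0) (hm : 2 ≤ m)
    (hK : ∀ σ : RingAut K, σ * σ = 1 → σ = 1) {L : Type v} [Group L]
    (e : L ≃* H715.Sy K m ⧸ center (H715.Sy K m)) : FewAut 2 L :=
  (fewAut_PQ_two h2 hm hK).congr e.symm

end

end Vale.Agent.P240.R2.H667.Fa
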