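import Vale.Agent.P240.R2.H667.UN

/-!
P240, odd primes, unitary groups: `StmtUN` without the hypothesis on the skew elements
(the fixed field of `σ` may have four elements) and without `3 ≤ q`.
-/

set_option autoImplicit false

namespace Vale.Agent.P240.R2.H667.Un

open Matrix Vale.Agent.P240.R2.H38 Vale.Agent.P240.R2.H687.Odd

universe u

variable {K : Type u} [Field K] [StarRing K] [Fintype K] {n : ℕ}

/-- the fixed field has four elements: a transvection which inverts `X` -/
lemma four {p q : ℕ} {M : Matrix (Fin n) (Fin n) K} {σ : K ≃+* K}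
    {θ : Matrix (Fin n) (Fin n) K ≃+* Matrix (Fin n) (Fin n) K} {f : Matrix (Fin n) (Fin n) K}
    (h : Set' p q M σ θ f) (h01 : ∀ c : K, σ c = c → star c = c → c = 0 ∨ c = 1)
    (h2 : (2 : K) = 0) {X : Matrix (Fin n) (Fin n) K} (hX : star X * X = 1) (hXp : X ^ p = 1)
    {v : Fin n → K} (hv : v ∈ fv M σ f) (hXv : X *ᵥ v ∈ fv M σ f) (hvv : H v v = 0)
    (hinv : X * ((1 + P v) * X * (1 + P v)) = 1) : H v (X *ᵥ v) = 0 := by
  set b := H v (X *ᵥ v) with hb
  have hPv : P v *ᵥ v = 0 := by
    unfold P
    rw [vecMulVec_mulVec]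
    unfold H at hvv
    rw [hvv]
    simp
  have hPXv : P v *ᵥ (X *ᵥ v) = b • v := by
    unfold P
    rw [vecMulVec_mulVec, op_smul_eq_smul]
    rfl
  have hneg : ∀ w : Fin n → K, w + w = 0 := by
    intro w
    rw [← two_smul K w, h2, zero_smul]
  have e1 : X *ᵥ (X *ᵥ v) = v + b • (X *ᵥ v) := by
    have h3 : (X * ((1 + P v) * X * (1 + P v))) *ᵥ v = v := by rw [hinv, one_mulVec]
    rw [← mulVec_mulVec, ← mulVec_mulVec, add_mulVec, one_mulVec, hPv, add_zero,
      ← mulVec_mulVec, add_mulVec, one_mulVec, hPXv, mulVec_add, mulVec_smul] at h3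
    have h4 := hneg (b • (X *ᵥ v))
    calc X *ᵥ (X *ᵥ v) = X *ᵥ (X *ᵥ v) + (b • (X *ᵥ v) + b • (X *ᵥ v)) := by rw [h4, add_zero]
      _ = (X *ᵥ (X *ᵥ v) + b • (X *ᵥ v)) + b • (X *ᵥ v) := by abel
      _ = v + b • (X *ᵥ v) := by rw [h3]
  have hbk : σ b = b := h.herm'.val v hv _ hXv
  have hXvv : H (X *ᵥ v) (X *ᵥ v) = 0 := by rw [H_mul hX, hvv]
  have hsb : H (X *ᵥ v) v = star b := by rw [hb, H_star]
  have e2 : b = star b := by
    have h3 : H (X *ᵥ (X *ᵥ v)) (X *ᵥ (X *ᵥ v)) = 0 := by rw [H_mul hX, hXvv]
    rw [e1, H_add_left, H_add_right, H_add_right, H_smul_left, H_smul_right, H_smul_left,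
      H_smul_right, hvv, hXvv, hsb, ← hb] at h3
    have h4 : (b - star b) ^ 2 = 0 := by linear_combination h3 - b * star b * h2
    exact sub_eq_zero.1 (pow_eq_zero_iff (two_ne_zero) |>.1 h4)
  rcases h01 b hbk e2.symm with h0 | h1
  · exact h0
  · exfalso
    rw [h1, one_smul] at e1
    have e3 : X *ᵥ (X *ᵥ (X *ᵥ v)) = v := by
      rw [e1, mulVec_add, e1]
      have := hneg (X *ᵥ v)
      calc X *ᵥ v + (v + X *ᵥ v) = v + (X *ᵥ v + X *ᵥ v) := by abel
        _ = v := by rw [this, add_zero]
    have e4 : ∀ m : ℕ, (X ^ (3 * m)) *ᵥ v = v := by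
      intro m
      induction m with
      | zero => rw [mul_zero, pow_zero, one_mulVec]
      | succ m ih =>
        rw [mul_add, mul_one, pow_add, ← mulVec_mulVec]
        have : X ^ 3 *ᵥ v = v := by
          rw [pow_succ, pow_two, ← mulVec_mulVec, ← mulVec_mulVec, e3]
        rw [this, ih]
    -- `p ≠ 3`
    have hp3 : p ≠ 3 := by
      intro hp3
      obtain ⟨z, hz, hzz⟩ := h.herm'.nonfix
      rw [mem_kf] at hz
      have hz0 : z ≠ 0 := by rintro rfl; exact hzz (star_zero _)
      have hsz : σ (star z) = star z := by rw [h.dsc.com, hz]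
      have g1 : z * star z = 1 := by
        rcases h01 (z * star z) (by rw [map_mul, hz, hsz]) (by
          rw [star_mul', star_star, mul_comm]) with g | g
        · exfalso
          rcases mul_eq_zero.1 g with g | g
          · exact hz0 g
          · exact hz0 (by simpa using congrArg star g)
        · exact g
      have g2 : z + star z = 1 := by
        rcases h01 (z + star z) (by rw [map_add, hz, hsz]) (by
          rw [star_add, star_star, add_comm]) with g | g
        · exfalso
          apply hzz
          linear_combination g - z * h2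
        · exact g
      have g3 : z ^ 3 = 1 := by
        have : star z = 1 - z := by linear_combination g2
        rw [this] at g1
        linear_combination (-(z - 1)) * g1 + (z * (z - 1)) * h2
      have g4 : z ^ (q + 1) = 1 := by rw [pow_succ', ← h.hs, g1]
      have g5 : Nat.Coprime 3 (q + 1) := by
        have := (Nat.Prime.coprime_iff_not_dvd h.pr).2 h.ndvd
        rwa [hp3] at this
      have g6 : z ^ Nat.gcd 3 (q + 1) = 1 := pow_gcd_eq_one.2 ⟨g3, g4⟩
      rw [g5.gcd_eq_one, pow_one] at g6
      rw [g6, star_one] at hzz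
      exact hzz rfl
    have e5 : X *ᵥ v = v ∨ X *ᵥ (X *ᵥ v) = v := by
      have h3 : (X ^ p) *ᵥ v = v := by rw [hXp, one_mulVec]
      have h4 : p % 3 ≠ 0 := by
        intro h5
        have h6 : 3 ∣ p := Nat.dvd_of_mod_eq_zero h5
        exact hp3 ((Nat.prime_dvd_prime_iff_eq Nat.prime_three h.pr).1 h6).symm
      have h5 : p = p % 3 + 3 * (p / 3) := (Nat.mod_add_div p 3).symm
      rw [h5, pow_add, ← mulVec_mulVec, e4] at h3
      have h6 : p % 3 = 1 ∨ p % 3 = 2 := by omega
      rcases h6 with h6 | h6
      · left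
        rw [h6, pow_one] at h3
        exact h3
      · right
        rw [h6, pow_two, ← mulVec_mulVec] at h3
        exact h3
    have h1' : H v (X *ᵥ v) = 1 := by rw [← hb]; exact h1
    rcases e5 with h3 | h3
    · rw [h3, hvv] at h1'
      exact zero_ne_one h1'
    · rw [e1] at h3
      have h4 : X *ᵥ v = 0 := by simpa using h3
      rw [h4, H_zero_right] at h1'
      exact zero_ne_one h1'

/-- `StmtUN` without restrictions on the fixed field -/
theorem un_all {K : Type u} [Field K] [Fintype K] [StarRing K] {q : ℕ} (hK : Nat.card K = q ^ 2)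
    (hs : ∀ x : K, star x = x ^ q) {n p : ℕ} [hp : Fact p.Prime] (hp2 : p ≠ 2)
    (hpq : ¬ p ∣ q + 1) {M : Matrix (Fin n) (Fin n) K} {σ : K ≃+* K}
    {θ : Matrix (Fin n) (Fin n) K ≃+* Matrix (Fin n) (Fin n) K} (hD : DscU p M σ θ) :
    NN p (jU K n) star θ := by
  intro f hff hfs hfθ x hxp hx1 hxθ hxf hfx
  by_contra hcon
  push Not at hcon
  have h : Set' p q M σ θ f :=
    { card := hK, hs := hs, pr := hp.out, odd := hp.out.odd_of_ne_two hp2, ndvd := hpq, dsc := hD
      idem := hff, herm := hfs, fix := hfθ }
  have hXs : star (jU K n x) * jU K n x = 1 := Matrix.mem_unitaryGroup_iff'.1 x.1.2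
  have hXp : (jU K n x) ^ p = 1 := by rw [← map_pow, hxp, map_one]
  have hT : ∀ v ∈ fv M σ f, H v v = 0 → ∀ s : K, σ s = s → star s = -s →
      ∃ T : SU K n, mt T = 1 + s • P v ∧ mt T⁻¹ = 1 - s • P v ∧
        T * x * T⁻¹ ∈ Subgroup.zpowers x := by
    intro v hv hvv s hs1 hs2
    obtain ⟨T, hT, hT'⟩ := exists_trans hvv hs2
    have hb := P_block hfs hv.2
    refine ⟨T, hT, hT', hcon T (by
      change θ (mt T) = mt T
      rw [hT]
      exact h.trans_fix hv hs1) (by
      change mt T * (1 - f) = 1 - f
      rw [hT, add_mul, one_mul, smul_mul_assoc, hb.1, smul_zero, add_zero]) (by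
      change (1 - f) * mt T = 1 - f
      rw [hT, mul_add, mul_one, mul_smul_comm, hb.2, smul_zero, add_zero])⟩
  have h1 : jU K n x = 1 := by
    apply h.core hXs hXp hxθ hxf hfx
    intro v hv hvv
    by_cases hab : ∃ a b : K, σ a = a ∧ σ b = b ∧ a ≠ 0 ∧ b ≠ 0 ∧ a ≠ b ∧ star a = -a ∧ star b = -b
    · obtain ⟨a, b, hσa, hσb, ha0, hb0, hab, hsa, hsb⟩ := hab
      have key : ∀ s : K, σ s = s → star s = -s →
          Commute ((1 + s • P v) * jU K n x * (1 - s • P v)) (jU K n x) := by
        intro s hs1 hs2
        obtain ⟨T, e1, e2, h2⟩ := hT v hv hvv s hs1 hs2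
        obtain ⟨m, hm⟩ := Subgroup.mem_zpowers_iff.1 h2
        have h3 : Commute (T * x * T⁻¹) x := by
          rw [← hm]
          exact (Commute.refl x).zpow_left m
        have h4 := congrArg (jU K n) h3.eq
        simp only [map_mul] at h4
        have e1' : jU K n T = 1 + s • P v := e1
        have e2' : jU K n T⁻¹ = 1 - s • P v := e2
        rw [e1', e2'] at h4
        exact h4
      exact alg _ hvv ha0 hb0 hab (key a hσa hsa) (key b hσb hsb)
    · push Not at hab
      obtain ⟨z, hz, hzz⟩ := h.herm'.nonfix
      rw [mem_kf] at hz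
      have hsz : σ (star z) = star z := by rw [hD.com, hz]
      have ha0 : z - star z ≠ 0 := fun h0 => hzz (sub_eq_zero.1 h0).symm
      have hσa : σ (z - star z) = z - star z := by rw [map_sub, hz, hsz]
      have hsa : star (z - star z) = -(z - star z) := by rw [star_sub, star_star]; ring
      have h01 : ∀ c : K, σ c = c → star c = c → c = 0 ∨ c = 1 := by
        intro c hc hsc
        by_contra h01
        push Not at h01
        have h3 := hab (z - star z) (c * (z - star z)) hσa (by rw [map_mul, hc, hσa]) ha0
          (mul_ne_zero h01.1 ha0) (by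
            intro h4
            have h5 : (c - 1) * (z - star z) = 0 := by linear_combination -h4
            rcases mul_eq_zero.1 h5 with h6 | h6
            · exact h01.2 (sub_eq_zero.1 h6)
            · exact ha0 h6) hsa
        apply h3
        rw [star_mul', hsc, hsa]
        ring
      have h2 : (2 : K) = 0 := by
        rcases h01 (-1) (by rw [map_neg, map_one]) (by rw [star_neg, star_one]) with h3 | h3
        · exact absurd (neg_eq_zero.1 h3) one_ne_zero
        · linear_combination -h3
      have hone : star (1 : K) = -1 := by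
        rw [star_one]; linear_combination h2
      obtain ⟨T, e1, e2, h3⟩ := hT v hv hvv 1 (map_one σ) hone
      have hTT : T⁻¹ = T := by
        apply mt_inj
        rw [e1, e2, one_smul]
        have : P v + P v = 0 := by rw [← two_smul K (P v), h2, zero_smul]
        rw [sub_eq_iff_eq_add, add_assoc, this, add_zero]
      obtain ⟨m, hm⟩ := Subgroup.mem_zpowers_iff.1 h3
      rw [hTT] at hm
      have hTT2 : T * T = 1 := by
        have := mul_inv_cancel T
        rwa [hTT] at this
      have hconj : MulAut.conj T x = x ^ m := by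
        rw [MulAut.conj_apply, hTT, hm]
      have h4 : x ^ (m * m - 1) = 1 := by
        have h5 : MulAut.conj T (MulAut.conj T x) = x := by
          simp only [MulAut.conj_apply, hTT]
          have : T * (T * x * T) * T = (T * T) * x * (T * T) := by group
          rw [this, hTT2, one_mul, mul_one]
        rw [hconj, map_zpow, hconj, ← _root_.zpow_mul] at h5
        rw [_root_.zpow_sub, _root_.zpow_one, h5, mul_inv_cancel]
      have ho : orderOf x = p := orderOf_eq_prime hxp hx1
      have h5 : (p : ℤ) ∣ (m - 1) * (m + 1) := by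
        have h6 := orderOf_dvd_iff_zpow_eq_one.2 h4
        rw [ho] at h6
        have : (m - 1) * (m + 1) = m * m - 1 := by ring
        rw [this]
        exact h6
      have hpZ : Prime (p : ℤ) := Nat.prime_iff_prime_int.1 hp.out
      have hXV : jU K n x *ᵥ v ∈ fv M σ f := by
        refine ⟨?_, ?_⟩
        · rw [ta_mulVec (h.comm hxθ), hv.1]
        · have hcomm : f * jU K n x = jU K n x * f := by
            have h1 : jU K n x * (1 - f) = (1 - f) * jU K n x := by rw [hxf, hfx]
            rw [mul_sub, sub_mul, mul_one, one_mul] at h1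
            exact (sub_right_injective h1).symm
          rw [mulVec_mulVec, hcomm, ← mulVec_mulVec, hv.2]
      rcases hpZ.dvd_or_dvd h5 with h6 | h6
      · -- the transvection centralises `x`
        have h7 : x ^ (m - 1) = 1 := orderOf_dvd_iff_zpow_eq_one.1 (by rw [ho]; exact h6)
        have h8 : x ^ m = x := by
          rw [_root_.zpow_sub, _root_.zpow_one, mul_inv_eq_one] at h7
          exact h7
        rw [h8] at hm
        have h9 : T * x = x * T := by
          have : T * x * T * T = x * T := by rw [← hm]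
          rwa [mul_assoc (T * x), hTT2, mul_one] at this
        have h10 := congrArg (jU K n) h9
        rw [map_mul, map_mul] at h10
        have e1' : jU K n T = 1 + (1 : K) • P v := e1
        rw [e1', one_smul, add_mul, mul_add, one_mul, mul_one, add_right_inj] at h10
        have h11 : P v * jU K n x * P v = 0 := by
          rw [h10, mul_assoc, P_mul, hvv, zero_smul, mul_zero]
        rw [P_mul_mul] at h11
        by_cases hv0 : v = 0
        · rw [hv0, H_zero_left]
        · exact (smul_eq_zero.1 h11).resolve_right (P_ne hv0)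
      · -- the transvection inverts `x`
        have h7 : x ^ (m + 1) = 1 := orderOf_dvd_iff_zpow_eq_one.1 (by rw [ho]; exact h6)
        have h8 : x * (T * x * T) = 1 := by
          rw [← hm, ← _root_.zpow_one_add, add_comm, h7]
        have h9 := congrArg (jU K n) h8
        rw [map_mul, map_mul, map_mul, map_one] at h9
        have e1' : jU K n T = 1 + (1 : K) • P v := e1
        rw [e1', one_smul] at h9
        exact four h h01 h2 hXs hXp hv hXV hvv h9
  apply hx1
  exact mt_inj h1

end Vale.Agent.P240.R2.H667.Un
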