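import Vale.Agent.P240.R2.H667.Fa
import Vale.Agent.P240.R2.H164.Con2

/-!
P240: `FewAut 2` for `PSp_{2m}(q)`, all odd `q`, `m ≥ 2`.
-/

set_option autoImplicit false

namespace Vale.Agent.P240.R2.H667.Fa

open Matrix Subgroup Vale.Agent.P240.H195

universe u v

/-- **`FewAut 2` for `PSp_{2m}(q)`**, `q` odd, `m ≥ 2`. -/
theorem fewAut_PSp_two_all {K : Type u} [Field K] [Finite K] {m : ℕ} (h2 : (2 : K) ≠ 0)
    (hm : 2 ≤ m) (hs : IsSimpleGroup (H715.Sy K m ⧸ center (H715.Sy K m))) {L : Type v} [Group L]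
    (e : L ≃* H715.Sy K m ⧸ center (H715.Sy K m)) : FewAut 2 L :=
  fewAut_PSp_two_of h2 hm e (H164.Con.conn_psp h2 hm hs)

/-- the same with the simplicity of `L` -/
theorem fewAut_PSp_two_simple {K : Type u} [Field K] [Finite K] {m : ℕ} (h2 : (2 : K) ≠ 0)
    (hm : 2 ≤ m) {L : Type v} [Group L] (hL : IsSimpleGroup L)
    (e : L ≃* H715.Sy K m ⧸ center (H715.Sy K m)) : FewAut 2 L :=
  have := hL
  fewAut_PSp_two_all h2 hm e.symm.isSimpleGroup e

end Vale.Agent.P240.R2.H667.Fa
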