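import Vale.Agent.P240.R2.H667.UnC
import Vale.Agent.P240.R2.H687.UnDefs

/-!
P240, odd primes, unitary groups: row UN (`StmtUN` of `R2/H687/UnDefs.lean`).
-/

set_option autoImplicit false

namespace Vale.Agent.P240.R2.H667.Un

open Matrix Vale.Agent.P240.R2.H38 Vale.Agent.P240.R2.H687.Odd

universe u

variable {K : Type u} [Field K] [StarRing K] {n : ℕ}

/-- the fixed field -/
def kf (σ : K ≃+* K) : Subfield K where
  carrier := {a | σ a = a}
  mul_mem' := by
    intro a b ha hb
    simp only [Set.mem_ofPred_eq] at ha hb ⊢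
    rw [map_mul, ha, hb]
  one_mem' := map_one σ
  add_mem' := by
    intro a b ha hb
    simp only [Set.mem_ofPred_eq] at ha hb ⊢
    rw [map_add, ha, hb]
  zero_mem' := map_zero σ
  neg_mem' := by
    intro a ha
    simp only [Set.mem_ofPred_eq] at ha ⊢
    rw [map_neg, ha]
  inv_mem' := by
    intro a ha
    simp only [Set.mem_ofPred_eq] at ha ⊢
    rw [map_inv₀, ha]

omit [StarRing K] in
lemma mem_kf {σ : K ≃+* K} {a : K} : a ∈ kf σ ↔ σ a = a := Iff.rfl

/-- the semilinear map -/
def ta (M : Matrix (Fin n) (Fin n) K) (σ : K ≃+* K) (v : Fin n → K) : Fin n → K :=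
  M *ᵥ (fun i => σ (v i))

omit [StarRing K] in
lemma ta_add (M : Matrix (Fin n) (Fin n) K) (σ : K ≃+* K) (v w : Fin n → K) :
    ta M σ (v + w) = ta M σ v + ta M σ w := by
  unfold ta
  rw [← mulVec_add]
  congr 1
  funext i
  simp

omit [StarRing K] in
lemma ta_smul (M : Matrix (Fin n) (Fin n) K) (σ : K ≃+* K) (a : K) (v : Fin n → K) :
    ta M σ (a • v) = σ a • ta M σ v := by
  unfold ta
  rw [← mulVec_smul]
  congr 1
  funext i
  simp

omit [StarRing K] in
/-- matrices fixed by `θ` commute with `ta` -/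
lemma ta_mulVec {M : Matrix (Fin n) (Fin n) K} {σ : K ≃+* K} {A : Matrix (Fin n) (Fin n) K}
    (hA : A * M = M * A.map σ) (v : Fin n → K) : ta M σ (A *ᵥ v) = A *ᵥ ta M σ v := by
  unfold ta
  rw [mulVec_mulVec, hA, ← mulVec_mulVec]
  congr 1
  funext i
  simp [mulVec, dotProduct, map_sum]

/-- fixed vectors in the block of `f` -/
def fv (M : Matrix (Fin n) (Fin n) K) (σ : K ≃+* K) (f : Matrix (Fin n) (Fin n) K) :
    Submodule (kf σ) (Fin n → K) where
  carrier := {v | ta M σ v = v ∧ f *ᵥ v = v}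
  add_mem' := by
    rintro v w ⟨hv, hv'⟩ ⟨hw, hw'⟩
    exact ⟨by rw [ta_add, hv, hw], by rw [mulVec_add, hv', hw']⟩
  zero_mem' := by
    refine ⟨?_, mulVec_zero f⟩
    have := ta_smul M σ 0 (0 : Fin n → K)
    rwa [zero_smul, map_zero, zero_smul] at this
  smul_mem' := by
    rintro a v ⟨hv, hv'⟩
    have e : (a • v : Fin n → K) = (a : K) • v := rfl
    refine ⟨?_, ?_⟩
    · rw [e, ta_smul, hv]
      congr 1
      exact a.2
    · rw [e, mulVec_smul, hv']

omit [StarRing K] in
lemma mem_fv {M : Matrix (Fin n) (Fin n) K} {σ : K ≃+* K} {f : Matrix (Fin n) (Fin n) K}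
    {v : Fin n → K} : v ∈ fv M σ f ↔ ta M σ v = v ∧ f *ᵥ v = v := Iff.rfl

/-- the data of row UN without the element -/
structure Set' (p q : ℕ) (M : Matrix (Fin n) (Fin n) K) (σ : K ≃+* K)
    (θ : Matrix (Fin n) (Fin n) K ≃+* Matrix (Fin n) (Fin n) K) (f : Matrix (Fin n) (Fin n) K) :
    Prop where
  card : Nat.card K = q ^ 2
  hs : ∀ x : K, star x = x ^ q
  pr : p.Prime
  odd : Odd p
  ndvd : ¬ p ∣ q + 1
  dsc : DscU p M σ θ
  idem : f * f = f
  herm : star f = f
  fix : θ f = f

section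
variable {p q : ℕ} {M : Matrix (Fin n) (Fin n) K} {σ : K ≃+* K}
    {θ : Matrix (Fin n) (Fin n) K ≃+* Matrix (Fin n) (Fin n) K} {f : Matrix (Fin n) (Fin n) K}

lemma Set'.pow (h : Set' p q M σ θ f) : (σ : RingAut K) ^ p = 1 := by
  rcases h.dsc.ord with ⟨_, h2⟩ | ⟨h1, _⟩
  · rw [h2]
    exact _root_.one_pow p
  · exact h1

/-- a linear form which vanishes on the fixed vectors is `0` -/
lemma Set'.span (h : Set' p q M σ θ f) {l : Fin n → K} (hl : ∀ v, ta M σ v = v → l ⬝ᵥ v = 0) :
    l = 0 := by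
  rcases h.dsc.ord with ⟨h1, h2⟩ | ⟨h1, h2⟩
  · funext i
    have h3 := hl (Pi.single i 1) (by
      unfold ta
      rw [h1, h2, one_mulVec]
      rfl)
    simpa using h3
  · exact Un.span h.pr h1 h2 (ta_add M σ) (ta_smul M σ) h.dsc.pow hl

lemma Set'.comm (h : Set' p q M σ θ f) {A : Matrix (Fin n) (Fin n) K} (hA : θ A = A) :
    A * M = M * A.map σ := by
  have := h.dsc.conj A
  rwa [hA] at this

/-- a linear form which vanishes on the fixed vectors of the block vanishes on the block -/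
lemma Set'.span' (h : Set' p q M σ θ f) {l : Fin n → K} (hl : ∀ v ∈ fv M σ f, l ⬝ᵥ v = 0) :
    l ᵥ* f = 0 := by
  apply h.span
  intro v hv
  rw [← dotProduct_mulVec]
  apply hl
  refine ⟨?_, ?_⟩
  · rw [ta_mulVec (h.comm h.fix), hv]
  · rw [mulVec_mulVec, h.idem]

variable [Fintype K]

lemma Set'.herm' (h : Set' p q M σ θ f) : Herm (kf σ) (fv M σ f) where
  sta := by
    intro a ha
    rw [mem_kf] at ha ⊢
    rw [h.dsc.com, ha]
  val := by
    intro v hv w hw
    rw [mem_kf]
    conv_rhs => rw [← hv.1, ← hw.1]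
    unfold ta
    rw [H_mul]
    · unfold H
      simp [dotProduct, map_sum, h.dsc.com]
    · rw [← mul_eq_one_comm]
      exact h.dsc.uni
  nondeg := by
    intro v hv hw
    have h1 : star v ᵥ* f = 0 := by
      apply h.span'
      intro w hw'
      have h2 := congrArg star (hw w hw')
      rw [H_star, star_zero] at h2
      exact h2
    have h2 : star (f *ᵥ v) = 0 := by
      rw [star_mulVec, ← star_eq_conjTranspose, h.herm]
      exact h1
    rw [hv.2] at h2
    simpa using congrArg star h2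
  nonfix := by
    obtain ⟨y, hy⟩ := star_ne h.card h.hs
    have h1 : (starRingAut : RingAut K) ^ 2 = 1 := by
      apply RingEquiv.ext
      intro a
      rw [pow_two]
      change star (star a) = a
      exact star_star a
    have h2 : (starRingAut : RingAut K) ≠ 1 := by
      intro h3
      apply hy
      exact DFunLike.congr_fun h3 y
    obtain ⟨z, hz1, hz2⟩ := exists_fixed h.odd h.pow h1 h2
    exact ⟨z, hz1, hz2⟩
  norm := by
    intro a ha has
    obtain ⟨x, hx1, hx2⟩ := exists_norm h.card h.hs h.odd h.pow h.dsc.com ha has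
    exact ⟨x, hx1, hx2⟩

/-- the core of the proof -/
theorem Set'.core (h : Set' p q M σ θ f) {X : Matrix (Fin n) (Fin n) K} (hX : star X * X = 1)
    (hXp : X ^ p = 1) (hXθ : θ X = X) (hXf : X * (1 - f) = 1 - f) (hfX : (1 - f) * X = 1 - f)
    (hiso : ∀ v ∈ fv M σ f, H v v = 0 → H v (X *ᵥ v) = 0) : X = 1 := by
  have hcomm : f * X = X * f := by
    have h1 : X * (1 - f) = (1 - f) * X := by rw [hXf, hfX]
    rw [mul_sub, sub_mul, mul_one, one_mul] at h1
    exact (sub_right_injective h1).symm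
  have hXV : ∀ v ∈ fv M σ f, X *ᵥ v ∈ fv M σ f := by
    rintro v ⟨hv1, hv2⟩
    refine ⟨?_, ?_⟩
    · rw [ta_mulVec (h.comm hXθ), hv1]
    · rw [mulVec_mulVec, hcomm, ← mulVec_mulVec, hv2]
  have hc : ∀ c : K, c * star c = 1 → c ^ p = 1 → c = 1 := by
    intro c h1 h2
    rw [h.hs, ← pow_succ'] at h1
    have h3 : Nat.Coprime p (q + 1) := (Nat.Prime.coprime_iff_not_dvd h.pr).2 h.ndvd
    have h4 : c ^ Nat.gcd p (q + 1) = 1 := pow_gcd_eq_one.2 ⟨h2, h1⟩
    rw [h3.gcd_eq_one, pow_one] at h4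
    exact h4
  have hfix := h.herm'.main hX hXp hXV hiso hc
  have h1 : (X - 1) * f = 0 := by
    ext i j
    have h2 : (fun t => (X - 1) i t) ᵥ* f = 0 := by
      apply h.span'
      intro v hv
      have h3 : (X - 1) *ᵥ v = 0 := by rw [sub_mulVec, one_mulVec, hfix v hv, sub_self]
      exact congrFun h3 i
    exact congrFun h2 j
  have h2 : (X - 1) * (1 - f) = 0 := by rw [sub_mul, hXf, one_mul, sub_self]
  have h3 : (X - 1) * (f + (1 - f)) = 0 := by rw [mul_add, h1, h2, add_zero]
  rw [add_sub_cancel, mul_one] at h3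
  exact sub_eq_zero.1 h3

omit [Fintype K] in
/-- the transvection in the group -/
lemma exists_trans {v : Fin n → K} (hv : H v v = 0) {a : K} (ha : star a = -a) :
    ∃ T : SU K n, mt T = 1 + a • P v ∧ mt T⁻¹ = 1 - a • P v := by
  refine ⟨⟨⟨1 + a • P v, mem_unitaryGroup_iff.2 (trans_star hv ha)⟩, trans_det hv a⟩, rfl, ?_⟩
  have h1 : mt (⟨⟨1 + a • P v, mem_unitaryGroup_iff.2 (trans_star hv ha)⟩, trans_det hv a⟩ :
    SU K n)⁻¹ = star (1 + a • P v) := rfl
  rw [h1, trans_inv v ha]

/-- the transvection is fixed by `θ` -/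
lemma Set'.trans_fix (h : Set' p q M σ θ f) {v : Fin n → K} (hv : v ∈ fv M σ f) {a : K}
    (ha : σ a = a) : θ (1 + a • P v) = 1 + a • P v := by
  have h1 : star M * M = 1 := by
    rw [← mul_eq_one_comm]; exact h.dsc.uni
  have h2 : (θ (1 + a • P v) - (1 + a • P v)) * M = 0 := by
    rw [sub_mul, h.dsc.conj, sub_eq_zero]
    have e1 : (1 + a • P v).map σ = 1 + a • P (fun i => σ (v i)) := by
      ext i j
      by_cases hij : i = j
      · subst hij
        simp [P, vecMulVec_apply, ha, h.dsc.com]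
      · simp [P, vecMulVec_apply, ha, h.dsc.com, Matrix.one_apply_ne hij]
    rw [e1, mul_add, add_mul, mul_one, one_mul, mul_smul_comm, smul_mul_assoc]
    congr 2
    have e2 : star v ᵥ* M = star (fun i => σ (v i)) := by
      conv_lhs => rw [← hv.1]
      unfold ta
      rw [star_mulVec, vecMul_vecMul, ← star_eq_conjTranspose, h1, vecMul_one]
    unfold P
    rw [vecMulVec_mul, e2, mul_vecMulVec]
    congr 1
    exact hv.1
  have h3 : (θ (1 + a • P v) - (1 + a • P v)) * M * star M = 0 := by rw [h2, zero_mul]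
  rw [mul_assoc, h.dsc.uni, mul_one] at h3
  exact sub_eq_zero.1 h3

omit [Fintype K] in
lemma P_block {v : Fin n → K} (hff : star f = f) (hv : f *ᵥ v = v) :
    P v * (1 - f) = 0 ∧ (1 - f) * P v = 0 := by
  have h1 : star v ᵥ* f = star v := by
    conv_rhs => rw [← hv]
    rw [star_mulVec, ← star_eq_conjTranspose, hff]
  unfold P
  constructor
  · rw [vecMulVec_mul, vecMul_sub, vecMul_one, h1, sub_self, vecMulVec_zero]
  · rw [mul_vecMulVec, sub_mulVec, one_mulVec, hv, sub_self, zero_vecMulVec]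

end

/-- row UN -/
theorem stmtUN : StmtUN.{u} := by
  intro K _ _ _ q hq hK hs n p hp hp2 hpq hpK M σ θ hD hab f hff hfs hfθ x hxp hx1 hxθ hxf hfx
  obtain ⟨a, b, hσa, hσb, ha0, hb0, hab, hsa, hsb⟩ := hab
  by_contra hcon
  push Not at hcon
  have h : Set' p q M σ θ f :=
    { card := hK, hs := hs, pr := hp.out, odd := hp.out.odd_of_ne_two hp2, ndvd := hpq, dsc := hD
      idem := hff, herm := hfs, fix := hfθ }
  have hXs : star (jU K n x) * jU K n x = 1 := Matrix.mem_unitaryGroup_iff'.1 x.1.2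
  have hXp : (jU K n x) ^ p = 1 := by rw [← map_pow, hxp, map_one]
  have h1 : jU K n x = 1 := by
    apply h.core hXs hXp hxθ hxf hfx
    intro v hv hvv
    have key : ∀ s : K, σ s = s → star s = -s →
        Commute ((1 + s • P v) * jU K n x * (1 - s • P v)) (jU K n x) := by
      intro s hs1 hs2
      obtain ⟨T, hT, hT'⟩ := exists_trans hvv hs2
      have hb := P_block hfs hv.2
      have h2 := hcon T (by
        change θ (mt T) = mt T
        rw [hT]
        exact h.trans_fix hv hs1) (by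
        change mt T * (1 - f) = 1 - f
        rw [hT, add_mul, one_mul, smul_mul_assoc, hb.1, smul_zero, add_zero]) (by
        change (1 - f) * mt T = 1 - f
        rw [hT, mul_add, mul_one, mul_smul_comm, hb.2, smul_zero, add_zero])
      obtain ⟨m, hm⟩ := Subgroup.mem_zpowers_iff.1 h2
      have h3 : Commute (T * x * T⁻¹) x := by
        rw [← hm]
        exact (Commute.refl x).zpow_left m
      have h4 := congrArg (jU K n) h3.eq
      simp only [map_mul] at h4
      have e1 : jU K n T = 1 + s • P v := hT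
      have e2 : jU K n T⁻¹ = 1 - s • P v := hT'
      rw [e1, e2] at h4
      exact h4
    exact alg _ hvv ha0 hb0 hab (key a hσa hsa) (key b hσb hsb)
  apply hx1
  exact mt_inj h1

end Vale.Agent.P240.R2.H667.Un
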