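import Mathlib.LinearAlgebra.Matrix.SchurComplement
import Mathlib.LinearAlgebra.Matrix.ConjTranspose
import Mathlib.FieldTheory.Fixed
import Mathlib.Tactic

/-!
P240, odd primes, unitary groups (row UN): hermitian geometry over a subfield, and the algebra of
unitary transvections.
-/

set_option autoImplicit false

namespace Vale.Agent.P240.R2.H667.Un

open Matrix

universe u

section
variable {K : Type u} [Field K] [StarRing K] {ι : Type*} [Fintype ι]

omit [StarRing K] in
/-- three roots of a quadratic polynomial -/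
lemma three_roots {A B C a b : K} (ha : a ≠ 1) (hb : b ≠ 1) (hab : a ≠ b)
    (h1 : A + B + C = 0) (h2 : A * a ^ 2 + B * a + C = 0) (h3 : A * b ^ 2 + B * b + C = 0) :
    C = 0 := by
  have e1 : (a - 1) * (A * (a + 1) + B) = 0 := by linear_combination h2 - h1
  have e2 : (b - 1) * (A * (b + 1) + B) = 0 := by linear_combination h3 - h1
  have f1 := (mul_eq_zero.1 e1).resolve_left (sub_ne_zero.2 ha)
  have f2 := (mul_eq_zero.1 e2).resolve_left (sub_ne_zero.2 hb)
  have e3 : (a - b) * A = 0 := by linear_combination f1 - f2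
  have hA := (mul_eq_zero.1 e3).resolve_left (sub_ne_zero.2 hab)
  rw [hA] at f1 h1
  have hB : B = 0 := by linear_combination f1
  rw [hB] at h1
  linear_combination h1

/-- the hermitian form -/
def H (v w : ι → K) : K := star v ⬝ᵥ w

lemma H_star (v w : ι → K) : star (H v w) = H w v := by
  unfold H
  rw [star_dotProduct, star_star]

lemma H_add_left (u v w : ι → K) : H (u + v) w = H u w + H v w := by
  unfold H; rw [star_add, add_dotProduct]

lemma H_add_right (u v w : ι → K) : H u (v + w) = H u v + H u w := by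
  unfold H; rw [dotProduct_add]

lemma H_sub_right (u v w : ι → K) : H u (v - w) = H u v - H u w := by
  unfold H; rw [dotProduct_sub]

lemma H_sub_left (u v w : ι → K) : H (u - v) w = H u w - H v w := by
  unfold H; rw [star_sub, sub_dotProduct]

lemma H_smul_right (a : K) (v w : ι → K) : H v (a • w) = a * H v w := by
  unfold H; rw [dotProduct_smul, smul_eq_mul]

lemma H_smul_left (a : K) (v w : ι → K) : H (a • v) w = star a * H v w := by
  unfold H; rw [star_smul, smul_dotProduct, smul_eq_mul]

lemma H_zero_right (v : ι → K) : H v 0 = 0 := by unfold H; rw [dotProduct_zero]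

lemma H_zero_left (v : ι → K) : H (0 : ι → K) v = 0 := by unfold H; rw [star_zero, zero_dotProduct]

lemma H_mul [DecidableEq ι] {x : Matrix ι ι K} (hx : star x * x = 1) (v w : ι → K) :
    H (x *ᵥ v) (x *ᵥ w) = H v w := by
  unfold H
  rw [star_mulVec, ← dotProduct_mulVec, mulVec_mulVec, ← star_eq_conjTranspose, hx, one_mulVec]

end

section
variable {K : Type u} [Field K] [StarRing K] {ι : Type*} [Fintype ι]

/-- a nondegenerate hermitian space over the subfield `k` inside `ι → K` -/
structure Herm (k : Subfield K) (V : Submodule k (ι → K)) : Prop where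
  sta : ∀ a ∈ k, star a ∈ k
  val : ∀ v ∈ V, ∀ w ∈ V, H v w ∈ k
  nondeg : ∀ v ∈ V, (∀ w ∈ V, H w v = 0) → v = 0
  nonfix : ∃ z ∈ k, star z ≠ z
  norm : ∀ a ∈ k, star a = a → ∃ b ∈ k, b * star b = a

variable {k : Subfield K} {V : Submodule k (ι → K)}

lemma Herm.exists_trace (h : Herm k V) {c : K} (hc : c ∈ k) (hc0 : c ≠ 0) :
    ∃ a ∈ k, a * c + star (a * c) ≠ 0 := by
  obtain ⟨z, hz, hzz⟩ := h.nonfix
  by_cases h2 : (2 : K) = 0
  · refine ⟨z * c⁻¹, k.mul_mem hz (k.inv_mem hc), ?_⟩
    rw [inv_mul_cancel_right₀ hc0]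
    intro h3
    apply hzz
    linear_combination h3 - z * h2
  · refine ⟨c⁻¹, k.inv_mem hc, ?_⟩
    rw [inv_mul_cancel₀ hc0, star_one]
    intro h3
    apply h2
    linear_combination h3

omit [StarRing K] [Fintype ι] in
lemma smul_mem' {a : K} (ha : a ∈ k) {v : ι → K} (hv : v ∈ V) : a • v ∈ V := by
  have := V.smul_mem (⟨a, ha⟩ : k) hv
  exact this

/-- isotropic vectors can be avoided -/
lemma Herm.aniso (h : Herm k V) {W : Submodule k (ι → K)} (hW : W ≤ V) {r : ι → K} (hr : r ∈ W)
    (hz : ∃ z ∈ W, H z r ≠ 0) : ∃ w ∈ W, H w w ≠ 0 ∧ H w r ≠ 0 := by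
  by_contra hcon
  push Not at hcon
  obtain ⟨z, hzW, hzr⟩ := hz
  have h1 : H r r = 0 := by
    by_contra h2
    exact h2 (hcon r hr h2)
  have h2 : H z z = 0 := by
    by_contra h3
    exact hzr (hcon z hzW h3)
  obtain ⟨a, ha, hne⟩ := h.exists_trace (h.val z (hW hzW) r (hW hr)) hzr
  have hw : z + a • r ∈ W := W.add_mem hzW (smul_mem' ha hr)
  have h3 : H (z + a • r) (z + a • r) = a * H z r + star (a * H z r) := by
    rw [H_add_left, H_add_right, H_add_right, H_smul_left, H_smul_right, H_smul_left, H_smul_right,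
      h1, h2, star_mul', H_star]
    ring
  have h4 : H (z + a • r) r = H z r := by
    rw [H_add_left, H_smul_left, h1, mul_zero, add_zero]
  have h5 := hcon _ hw (by rw [h3]; exact hne)
  rw [h4] at h5
  exact hzr h5

/-- three elements of norm `1` -/
lemma Herm.units (h : Herm k V) : ∃ a ∈ k, ∃ b ∈ k, a * star a = 1 ∧ b * star b = 1 ∧
    a ≠ 1 ∧ b ≠ 1 ∧ a ≠ b := by
  obtain ⟨z, hz, hzz⟩ := h.nonfix
  have z0 : z ≠ 0 := by rintro rfl; exact hzz (star_zero _)
  have z1 : z + 1 ≠ 0 := by
    intro h0
    have : z = -1 := by linear_combination h0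
    apply hzz
    rw [this, star_neg, star_one]
  have s0 : star z ≠ 0 := fun h0 => z0 (by simpa using congrArg star h0)
  have e1 : star (z + 1) = star z + 1 := by rw [star_add, star_one]
  have s1 : star z + 1 ≠ 0 := fun h0 => z1 (by
    have h2 := congrArg star h0
    rw [star_add, star_star, star_one, star_zero] at h2
    exact h2)
  have hz1 : z + 1 ∈ k := k.add_mem hz k.one_mem
  have hs1 : star z + 1 ∈ k := k.add_mem (h.sta z hz) k.one_mem
  refine ⟨z * (star z)⁻¹, k.mul_mem hz (k.inv_mem (h.sta z hz)),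
    (z + 1) * (star z + 1)⁻¹, k.mul_mem hz1 (k.inv_mem hs1), ?_, ?_, ?_, ?_, ?_⟩
  · rw [star_mul', star_inv₀, star_star]; field_simp
  · rw [star_mul', star_inv₀, star_add, star_add, star_star, star_one]; field_simp
  · intro h0
    apply hzz
    field_simp at h0
    exact h0.symm
  · intro h0
    apply hzz
    field_simp at h0
    linear_combination -h0
  · intro h0
    apply hzz
    field_simp at h0
    linear_combination -h0

/-- the isometry preserves anisotropic lines -/
lemma Herm.orth [DecidableEq ι] (h : Herm k V) {x : Matrix ι ι K}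
    (hiso : ∀ v ∈ V, H v v = 0 → H v (x *ᵥ v) = 0)
    {u w : ι → K} (hu : u ∈ V) (hw : w ∈ V) (hu0 : H u u ≠ 0) (hw0 : H w w ≠ 0)
    (huw : H u w = 0) : H w (x *ᵥ u) = 0 := by
  have hwu : H w u = 0 := by rw [← H_star, huw, star_zero]
  obtain ⟨l, hl, hll⟩ := h.norm (-(H u u * (H w w)⁻¹))
    (k.neg_mem (k.mul_mem (h.val u hu u hu) (k.inv_mem (h.val w hw w hw)))) (by
      rw [star_neg, star_mul', star_inv₀, H_star, H_star])
  have hl0 : l ≠ 0 := by
    rintro rfl
    rw [zero_mul] at hll
    have : H u u * (H w w)⁻¹ = 0 := by linear_combination hll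
    rcases mul_eq_zero.1 this with h1 | h1
    · exact hu0 h1
    · exact hw0 (inv_eq_zero.1 h1)
  have key : ∀ c ∈ k, c * star c = 1 →
      (l * H u (x *ᵥ w)) * c ^ 2 + (H u (x *ᵥ u) + l * star l * H w (x *ᵥ w)) * c +
        star l * H w (x *ᵥ u) = 0 := by
    intro c hc hcc
    have hv : u + (c * l) • w ∈ V := V.add_mem hu (smul_mem' (k.mul_mem hc hl) hw)
    have h1 : H (u + (c * l) • w) (u + (c * l) • w) = 0 := by
      rw [H_add_left, H_add_right, H_add_right, H_smul_left, H_smul_right, H_smul_left,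
        H_smul_right, huw, hwu, star_mul']
      have : star c * star l * (c * l * H w w) =
        (c * star c) * (l * star l) * H w w := by ring
      rw [this, hcc, hll]
      field_simp
      ring
    have h2 := hiso _ hv h1
    rw [mulVec_add, mulVec_smul, H_add_left, H_add_right, H_add_right, H_smul_left, H_smul_right,
      H_smul_left, H_smul_right, star_mul'] at h2
    have h3 : c ≠ 0 := by rintro rfl; rw [zero_mul] at hcc; exact zero_ne_one hcc
    linear_combination c * h2 - (star l * H w (x *ᵥ u) + c * l * star l * H w (x *ᵥ w)) * hcc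
  obtain ⟨a, ha, b, hb, haa, hbb, ha1, hb1, hab⟩ := h.units
  have k1 := key 1 k.one_mem (by rw [star_one, one_mul])
  have k2 := key a ha haa
  have k3 := key b hb hbb
  rw [one_pow, mul_one, mul_one] at k1
  have h5 := three_roots ha1 hb1 hab k1 k2 k3
  rcases mul_eq_zero.1 h5 with h6 | h6
  · exact absurd (by simpa using congrArg star h6) hl0
  · exact h6

/-- an isometry for which isotropic vectors are orthogonal to their images is trivial -/
theorem Herm.main [DecidableEq ι] (h : Herm k V) {x : Matrix ι ι K} (hx : star x * x = 1) {p : ℕ}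
    (hxp : x ^ p = 1) (hxV : ∀ v ∈ V, x *ᵥ v ∈ V)
    (hiso : ∀ v ∈ V, H v v = 0 → H v (x *ᵥ v) = 0)
    (hc : ∀ c : K, c * star c = 1 → c ^ p = 1 → c = 1) : ∀ v ∈ V, x *ᵥ v = v := by
  -- anisotropic vectors
  have h1 : ∀ u ∈ V, H u u ≠ 0 → x *ᵥ u = u := by
    intro u hu hu0
    set c := H u (x *ᵥ u) * (H u u)⁻¹ with hcd
    have hck : c ∈ k := k.mul_mem (h.val u hu _ (hxV u hu)) (k.inv_mem (h.val u hu u hu))
    have hrV : x *ᵥ u - c • u ∈ V := V.sub_mem (hxV u hu) (smul_mem' hck hu)
    have hur : H u (x *ᵥ u - c • u) = 0 := by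
      rw [H_sub_right, H_smul_right, hcd]
      field_simp
      ring
    have hr0 : x *ᵥ u - c • u = 0 := by
      apply h.nondeg _ hrV
      intro z hz
      by_contra hzr
      -- the orthogonal complement of `u`
      let W : Submodule k (ι → K) :=
        { carrier := {w | w ∈ V ∧ H u w = 0}
          add_mem' := by
            rintro a b ⟨ha, ha'⟩ ⟨hb, hb'⟩
            exact ⟨V.add_mem ha hb, by rw [H_add_right, ha', hb', add_zero]⟩
          zero_mem' := ⟨V.zero_mem, H_zero_right u⟩
          smul_mem' := by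
            rintro a b ⟨hb, hb'⟩
            refine ⟨V.smul_mem a hb, ?_⟩
            have e : (a • b : ι → K) = (a : K) • b := rfl
            rw [e, H_smul_right, hb', mul_zero] }
      have hWV : W ≤ V := fun w hw => hw.1
      set d := H u z * (H u u)⁻¹ with hd
      have hdk : d ∈ k := k.mul_mem (h.val u hu z hz) (k.inv_mem (h.val u hu u hu))
      have hz' : z - d • u ∈ W := by
        refine ⟨V.sub_mem hz (smul_mem' hdk hu), ?_⟩
        rw [H_sub_right, H_smul_right, hd]
        field_simp
        ring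
      have hz'' : H (z - d • u) (x *ᵥ u - c • u) ≠ 0 := by
        rw [H_sub_left, H_smul_left, hur, mul_zero, sub_zero]
        exact hzr
      obtain ⟨w, hwW, hww, hwr⟩ := h.aniso hWV (r := x *ᵥ u - c • u) ⟨hrV, hur⟩ ⟨_, hz', hz''⟩
      apply hwr
      have hwu : H w u = 0 := by rw [← H_star, hwW.2, star_zero]
      rw [H_sub_right, H_smul_right, hwu, mul_zero, sub_zero]
      exact h.orth hiso hu hwW.1 hu0 hww hwW.2
    have hxu : x *ᵥ u = c • u := sub_eq_zero.1 hr0
    have hu1 : u ≠ 0 := by rintro rfl; exact hu0 (H_zero_right 0)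
    have hcc : c * star c = 1 := by
      have h2 := H_mul hx u u
      rw [hxu, H_smul_left, H_smul_right] at h2
      have h3 : (c * star c - 1) * H u u = 0 := by linear_combination h2
      exact sub_eq_zero.1 ((mul_eq_zero.1 h3).resolve_right hu0)
    have hpow : ∀ m : ℕ, (x ^ m) *ᵥ u = c ^ m • u := by
      intro m
      induction m with
      | zero => rw [pow_zero, pow_zero, one_mulVec, one_smul]
      | succ m ih => rw [pow_succ', ← mulVec_mulVec, ih, mulVec_smul, hxu, smul_smul, ← pow_succ]
    have hcp : c ^ p = 1 := by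
      have h2 := hpow p
      rw [hxp, one_mulVec] at h2
      have h3 : (c ^ p - 1) • u = 0 := by rw [sub_smul, one_smul, ← h2, sub_self]
      exact sub_eq_zero.1 ((smul_eq_zero.1 h3).resolve_right hu1)
    rw [hxu, hc c hcc hcp, one_smul]
  intro v hv
  have hrV : x *ᵥ v - v ∈ V := V.sub_mem (hxV v hv) hv
  have hr0 : x *ᵥ v - v = 0 := by
    apply h.nondeg _ hrV
    intro z hz
    by_contra hzr
    obtain ⟨w, hw, hww, hwr⟩ := h.aniso le_rfl hrV ⟨z, hz, hzr⟩
    apply hwr
    have h2 := H_mul hx w v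
    rw [h1 w hw hww] at h2
    rw [H_sub_right, h2, sub_self]
  exact sub_eq_zero.1 hr0

end

end Vale.Agent.P240.R2.H667.Un
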