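import Vale.Agent.P240.R2.H667.UnA

/-!
P240, odd primes, unitary groups (row UN): the algebra of unitary transvections.
-/

set_option autoImplicit false

namespace Vale.Agent.P240.R2.H667.Un

open Matrix

universe u

variable {K : Type u} [Field K] [StarRing K] {ι : Type*} [Fintype ι]

/-- `w ↦ H v w • v` -/
def P (v : ι → K) : Matrix ι ι K := vecMulVec v (star v)

omit [Fintype ι] in
lemma P_star (v : ι → K) : star (P v) = P v := by
  unfold P
  rw [star_eq_conjTranspose, conjTranspose_vecMulVec, star_star]

lemma P_mul_mul (x : Matrix ι ι K) (v : ι → K) : P v * x * P v = H v (x *ᵥ v) • P v := by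
  unfold P H
  rw [vecMulVec_mul, vecMulVec_mul_vecMulVec, ← dotProduct_mulVec, vecMulVec_smul]

lemma P_mul (v : ι → K) : P v * P v = H v v • P v := by
  unfold P H
  rw [vecMulVec_mul_vecMulVec, vecMulVec_smul]

omit [Fintype ι] in
lemma P_ne {v : ι → K} (hv : v ≠ 0) : P v ≠ 0 := by
  intro h
  apply hv
  funext i
  have h1 := congrFun (congrFun h i) i
  unfold P at h1
  rw [vecMulVec_apply, Matrix.zero_apply, Pi.star_apply] at h1
  rcases mul_eq_zero.1 h1 with h2 | h2
  · exact h2
  · simpa using congrArg star h2

variable [DecidableEq ι]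

/-- the algebra of transvections -/
lemma alg (x : Matrix ι ι K) {v : ι → K} (hv : H v v = 0) {a b : K} (ha0 : a ≠ 0) (hb0 : b ≠ 0)
    (hab : a ≠ b) (ha : Commute ((1 + a • P v) * x * (1 - a • P v)) x)
    (hb : Commute ((1 + b • P v) * x * (1 - b • P v)) x) : H v (x *ᵥ v) = 0 := by
  by_cases hv0 : v = 0
  · rw [hv0, H_zero_left]
  set c := H v (x *ᵥ v) with hc
  have hP := P_ne hv0
  have hPP : P v * P v = 0 := by rw [P_mul, hv, zero_smul]
  have hPxP : P v * x * P v = c • P v := P_mul_mul x v
  have key : ∀ s : K, s ≠ 0 → Commute ((1 + s • P v) * x * (1 - s • P v)) x →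
      P v * x * x - (2 : K) • (x * P v * x) + x * x * P v = (s * c) • (P v * x - x * P v) := by
    intro s hs hcom
    have e1 : (1 + s • P v) * x * (1 - s • P v) =
        x + s • (P v * x) - s • (x * P v) - (s * s * c) • P v := by
      have : (1 + s • P v) * x * (1 - s • P v) =
          x + s • (P v * x) - s • (x * P v) - (s * s) • (P v * x * P v) := by
        simp only [add_mul, mul_sub, one_mul, mul_one, smul_mul_assoc,
          mul_smul_comm, smul_smul, smul_add, mul_assoc]
        module
      rw [this, hPxP, smul_smul]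
    rw [e1] at hcom
    have h2 := hcom.eq
    simp only [add_mul, mul_sub, mul_add, sub_mul, smul_mul_assoc, mul_smul_comm,
      ← mul_assoc] at h2
    have h3 : s • (P v * x * x - (2 : K) • (x * P v * x) + x * x * P v) =
        s • ((s * c) • (P v * x - x * P v)) := by
      have e2 : s • (P v * x * x - (2 : K) • (x * P v * x) + x * x * P v) -
        s • ((s * c) • (P v * x - x * P v)) =
        (x * x + s • (P v * x * x) - s • (x * P v * x) - (s * s * c) • (P v * x)) -
        (x * x + s • (x * P v * x) - s • (x * x * P v) - (s * s * c) • (x * P v)) := by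
        simp only [smul_sub, smul_add, smul_smul]
        module
      rw [← sub_eq_zero, e2, h2, sub_self]
    exact smul_right_injective _ hs h3
  have h1 := key a ha0 ha
  have h2 := key b hb0 hb
  rw [h1] at h2
  have h3 : ((a - b) * c) • (P v * x - x * P v) = 0 := by
    rw [sub_mul, sub_smul, h2, sub_self]
  have h4 : (((a - b) * c) • (P v * x - x * P v)) * P v = 0 := by rw [h3, zero_mul]
  have e3 : (P v * x - x * P v) * P v = c • P v := by
    rw [sub_mul, hPxP, mul_assoc x, hPP, mul_zero, sub_zero]
  rw [smul_mul_assoc, e3, smul_smul] at h4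
  have h5 := (smul_eq_zero.1 h4).resolve_right hP
  have h6 : (a - b) * (c * c) = 0 := by linear_combination h5
  exact mul_self_eq_zero.1 ((mul_eq_zero.1 h6).resolve_left (sub_ne_zero.2 hab))

/-- the transvection is unitary -/
lemma trans_star {v : ι → K} (hv : H v v = 0) {a : K} (ha : star a = -a) :
    (1 + a • P v) * star (1 + a • P v) = 1 := by
  have hPP : P v * P v = 0 := by rw [P_mul, hv, zero_smul]
  have e1 : star (1 + a • P v) = 1 - a • P v := by
    rw [star_add, star_one, star_smul, P_star, ha, neg_smul, sub_eq_add_neg]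
  rw [e1]
  simp only [add_mul, mul_sub, one_mul, mul_one, smul_mul_assoc, mul_smul_comm, hPP, smul_zero]
  module

lemma trans_inv (v : ι → K) {a : K} (ha : star a = -a) :
    star (1 + a • P v) = 1 - a • P v := by
  rw [star_add, star_one, star_smul, P_star, ha, neg_smul, sub_eq_add_neg]

/-- the transvection has determinant `1` -/
lemma trans_det {v : ι → K} (hv : H v v = 0) (a : K) : (1 + a • P v).det = 1 := by
  have e1 : a • P v = replicateCol Unit (a • v) * replicateRow Unit (star v) := by
    unfold P
    rw [← vecMulVec_eq, smul_vecMulVec]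
  rw [e1, det_one_add_replicateCol_mul_replicateRow, dotProduct_smul]
  unfold H at hv
  rw [hv, smul_zero, add_zero]

end Vale.Agent.P240.R2.H667.Un
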