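import Vale.Agent.P240.R2.H667.UnB
import Vale.Agent.P240.R2.H472.Nrm

/-!
P240, odd primes, unitary groups (row UN): fixed field and fixed vectors of a semilinear map of
order `p`.
-/

set_option autoImplicit false

namespace Vale.Agent.P240.R2.H667.Un

open Matrix

universe u

section
variable {K : Type u} [Field K]

/-- an automorphism of order two is not trivial on the fixed field of an automorphism of odd
prime order -/
lemma exists_fixed [Finite K] {p : ℕ} (hp2 : Odd p) {σ e : RingAut K}
    (hσ : σ ^ p = 1) (he : e ^ 2 = 1) (he1 : e ≠ 1) : ∃ z : K, σ z = z ∧ e z ≠ z := by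
  by_contra hcon
  push Not at hcon
  apply he1
  have hfin : Finite (RingAut K) := DFunLike.finite (K ≃+* K)
  let G : Subgroup (RingAut K) := Subgroup.zpowers σ
  obtain ⟨g, hg⟩ := FixedPoints.toAlgAut_surjective G K
    (AlgEquiv.ofRingEquiv (f := (e : K ≃+* K)) (fun r => by
      have h1 : σ (r : K) = r := r.2 ⟨σ, Subgroup.mem_zpowers σ⟩
      exact hcon _ h1))
  have hge : (g : RingAut K) = e := by
    apply RingEquiv.ext
    intro a
    have h1 := DFunLike.congr_fun hg a
    exact h1
  have h2 : e ^ p = 1 := by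
    obtain ⟨m, hm⟩ := Subgroup.mem_zpowers_iff.1 g.2
    rw [← hge, ← hm, ← zpow_natCast, ← _root_.zpow_mul, mul_comm, _root_.zpow_mul,
      zpow_natCast, hσ, _root_.one_zpow]
  obtain ⟨m, hm⟩ := hp2
  rw [hm, pow_succ, pow_mul, he, one_pow, one_mul] at h2
  exact h2

/-- a linear form which vanishes on the fixed vectors of a semilinear map of order `p` is `0` -/
lemma span {ι : Type*} [Fintype ι] {p : ℕ} (hp : p.Prime) {σ : RingAut K} (hσ : σ ^ p = 1)
    (hσ1 : σ ≠ 1) {τ : (ι → K) → (ι → K)} (hadd : ∀ v w, τ (v + w) = τ v + τ w)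
    (hsm : ∀ (a : K) v, τ (a • v) = σ a • τ v) (hτ : ∀ v, τ^[p] v = v) {l : ι → K}
    (hl : ∀ v, τ v = v → l ⬝ᵥ v = 0) : l = 0 := by
  have ho : orderOf σ = p := by
    have := Fact.mk hp
    exact orderOf_eq_prime hσ hσ1
  have hit : ∀ (i : ℕ) (a : K) (v : ι → K), τ^[i] (a • v) = (σ ^ i) a • τ^[i] v := by
    intro i
    induction i with
    | zero => intro a v; rfl
    | succ i ih =>
      intro a v
      rw [Function.iterate_succ_apply, hsm, ih, ← Function.iterate_succ_apply, pow_succ]
      rfl
  have hsum : ∀ (s : Finset ℕ) (g : ℕ → ι → K), τ (∑ i ∈ s, g i) = ∑ i ∈ s, τ (g i) := by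
    have h0 : τ 0 = 0 := by
      have := hsm 0 0
      rwa [zero_smul, map_zero, zero_smul] at this
    intro s g
    induction s using Finset.induction_on with
    | empty => simpa using h0
    | insert a s ha ih => rw [Finset.sum_insert ha, Finset.sum_insert ha, hadd, ih]
  have key : ∀ (w : ι → K) (a : K), ∑ i ∈ Finset.range p, (σ ^ i) a * (l ⬝ᵥ τ^[i] w) = 0 := by
    intro w a
    have h1 : τ (∑ i ∈ Finset.range p, τ^[i] (a • w)) = ∑ i ∈ Finset.range p, τ^[i] (a • w) := by
      rw [hsum]
      have e1 : ∀ i, τ (τ^[i] (a • w)) = τ^[i + 1] (a • w) :=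
        fun i => (Function.iterate_succ_apply' τ i (a • w)).symm
      simp only [e1]
      have e2 := Finset.sum_range_succ (fun i => τ^[i] (a • w)) p
      have e3 := Finset.sum_range_succ' (fun i => τ^[i] (a • w)) p
      rw [e2, hτ] at e3
      simp only [Function.iterate_zero, id] at e3
      exact (add_right_cancel e3).symm
    have h2 := hl _ h1
    rw [dotProduct_sum] at h2
    rw [← h2]
    apply Finset.sum_congr rfl
    intro i _
    rw [hit, dotProduct_smul, smul_eq_mul]
  have hinj : Function.Injective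
      (fun i : Fin p => (((σ ^ (i : ℕ) : RingAut K) : K ≃+* K).toRingHom : K →* K)) := by
    intro i j hij
    have h1 : σ ^ (i : ℕ) = σ ^ (j : ℕ) := by
      apply RingEquiv.ext
      intro a
      exact DFunLike.congr_fun hij a
    apply Fin.ext
    exact pow_injOn_Iio_orderOf (by rw [Set.mem_Iio, ho]; exact i.2)
      (by rw [Set.mem_Iio, ho]; exact j.2) h1
  have hli := (linearIndependent_monoidHom K K).comp _ hinj
  rw [Fintype.linearIndependent_iff] at hli
  funext t
  classical
  have h3 := hli (fun i => l ⬝ᵥ τ^[(i : ℕ)] (Pi.single t 1)) (by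
    funext a
    have h4 := key (Pi.single t 1) a
    rw [Finset.sum_range (fun i => (σ ^ i) a * (l ⬝ᵥ τ^[i] (Pi.single t 1)))] at h4
    rw [Finset.sum_apply, Pi.zero_apply, ← h4]
    apply Finset.sum_congr rfl
    intro i _
    rw [Pi.smul_apply, smul_eq_mul, mul_comm]
    rfl) ⟨0, hp.pos⟩
  simpa using h3

end

section
variable {K : Type u} [Field K] [Fintype K] [StarRing K] {q : ℕ}

/-- the norm is surjective on fixed fields of automorphisms of odd order -/
lemma exists_norm (hK : Nat.card K = q ^ 2) (hs : ∀ x : K, star x = x ^ q) {p : ℕ} (hp : Odd p)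
    {σ : RingAut K} (hσ : σ ^ p = 1) (hcom : ∀ a : K, σ (star a) = star (σ a)) {c : K}
    (hc : σ c = c) (hcs : star c = c) : ∃ x : K, σ x = x ∧ x * star x = c := by
  by_cases h0 : c = 0
  · exact ⟨0, map_zero σ, by rw [h0, zero_mul]⟩
  obtain ⟨x, hx⟩ := H472.exists_norm (by rwa [← Nat.card_eq_fintype_card]) hs h0 hcs
  have hcomi : ∀ (i : ℕ) (a : K), (σ ^ i) (star a) = star ((σ ^ i) a) := by
    intro i
    induction i with
    | zero => intro a; rfl
    | succ i ih =>
      intro a
      rw [pow_succ']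
      change σ ((σ ^ i) (star a)) = star (σ ((σ ^ i) a))
      rw [ih, hcom]
  have hci : ∀ i : ℕ, (σ ^ i) c = c := by
    intro i
    induction i with
    | zero => rfl
    | succ i ih =>
      rw [pow_succ']
      change σ ((σ ^ i) c) = c
      rw [ih, hc]
  set N : K := ∏ i ∈ Finset.range p, (σ ^ i) x with hN
  have hσN : σ N = N := by
    rw [hN, map_prod]
    have e1 : ∀ i, σ ((σ ^ i) x) = (σ ^ (i + 1)) x := fun i => by rw [pow_succ']; rfl
    simp only [e1]
    by_cases hx0 : x = 0
    · exfalso; rw [hx0, mul_zero] at hx; exact h0 hx.symm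
    have e2 := Finset.prod_range_succ (fun i => (σ ^ i) x) p
    have e3 := Finset.prod_range_succ' (fun i => (σ ^ i) x) p
    rw [e2, hσ, pow_zero] at e3
    exact (mul_right_cancel₀ (by exact hx0) e3).symm
  have hNN : N * star N = c ^ p := by
    rw [hN, star_prod, ← Finset.prod_mul_distrib, ← Finset.card_range p, ← Finset.prod_const,
      Finset.card_range]
    apply Finset.prod_congr rfl
    intro i _
    rw [← hcomi, ← map_mul, mul_comm, hx, hci]
  obtain ⟨m, hm⟩ := hp
  refine ⟨N * (c ^ m)⁻¹, by rw [map_mul, map_inv₀, map_pow, hσN, hc], ?_⟩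
  rw [star_mul', star_inv₀, star_pow, hcs]
  have : N * (c ^ m)⁻¹ * (star N * (c ^ m)⁻¹) = N * star N * ((c ^ m)⁻¹ * (c ^ m)⁻¹) := by ring
  rw [this, hNN, hm]
  field_simp
  ring

/-- `star` is not trivial -/
lemma star_ne (hK : Nat.card K = q ^ 2) (hs : ∀ x : K, star x = x ^ q) :
    ∃ z : K, star z ≠ z := by
  by_contra hcon
  push Not at hcon
  obtain ⟨g, hg⟩ := IsCyclic.exists_generator (α := Kˣ)
  have ho : orderOf g = q ^ 2 - 1 := by
    rw [orderOf_eq_card_of_forall_mem_zpowers hg, Nat.card_units, hK]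
  have hq : 2 ≤ q := by
    have h1 : 1 < Nat.card K := Finite.one_lt_card
    rw [hK] at h1
    by_contra h2
    have : q = 0 ∨ q = 1 := by omega
    rcases this with rfl | rfl <;> simp at h1
  have h1 : g ^ (q - 1) = 1 := by
    have h2 := hcon (g : K)
    rw [hs] at h2
    have h3 : g ^ q = g := Units.ext h2
    have h4 : g ^ (q - 1) * g = 1 * g := by rw [← pow_succ, one_mul, Nat.sub_add_cancel (by omega), h3]
    exact mul_right_cancel h4
  have h2 := Nat.le_of_dvd (by omega) (orderOf_dvd_of_pow_eq_one h1)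
  rw [ho] at h2
  have : q < q ^ 2 := by nlinarith
  omega

end

end Vale.Agent.P240.R2.H667.Un
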